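/-
helper8 -- S0355 squad (track D), leaf D1 (hedge copy): the prism over a coordinate facet.

`sweep (facet (inl j)) u = {x | u j ≤ x j ≤ 0 ∧ x - (x j / u j) • u ∈ KP}`; splitting off the
coordinate `j`, the slice over `x j = ξ ∈ [u j, 0]` is a translate of the two-block set
`{y | Fin.insertNth j 0 y ∈ KP}`, of volume `1/(9!·10!)`.
-/
import Crest.Agent.Helper28.S0355.Defs

set_option autoImplicit false
open MeasureTheory
open scoped ENNReal

namespace Crest.Agent.Helper8.S0355

open Crest.Agent.Helper28.S0355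

/-- Membership in the prism over the coordinate facet `j`, for `u j < 0`. -/
theorem mem_sweep_facet_inl (u : P20) (j : Fin 20) (hj : u j < 0) (x : P20) :
    x ∈ sweep (facet (Sum.inl j)) u ↔
      (u j ≤ x j ∧ x j ≤ 0) ∧ x - (x j / u j) • u ∈ KP := by
  have hne : u j ≠ 0 := ne_of_lt hj
  constructor
  · rintro ⟨t, ⟨ht0, ht1⟩, hK, hF⟩
    have hxj : x j = t * u j := by
      have : -(x j - t * u j) = 0 := by simpa [lc, bc] using hF
      linarith
    have ht : x j / u j = t := by
      rw [hxj]; field_simp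
    refine ⟨⟨?_, ?_⟩, ?_⟩
    · rw [hxj]; nlinarith
    · rw [hxj]; nlinarith
    · rw [ht]; exact hK
  · rintro ⟨⟨h1, h2⟩, hK⟩
    refine ⟨x j / u j, ⟨?_, ?_⟩, hK, ?_⟩
    · exact div_nonneg_of_nonpos h2 hj.le
    · rw [div_le_one_of_neg hj]; exact h1
    · have : x j - x j / u j * u j = 0 := by field_simp; ring
      simp [lc, bc, this]

/-- `KP` is closed. -/
theorem isClosed_KP : IsClosed KP := by
  have h1 : KP = (⋂ i : Fin 20, {x : P20 | 0 ≤ x i}) ∩
      ({x : P20 | s1 x ≤ 1} ∩ {x : P20 | s2 x ≤ 1}) := by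
    ext x; simp [KP]
  rw [h1]
  refine IsClosed.inter (isClosed_iInter fun i => isClosed_le continuous_const (continuous_apply i))
    (IsClosed.inter ?_ ?_)
  · exact isClosed_le (by unfold s1; exact continuous_finsetSum _ fun i _ => continuous_apply i)
      continuous_const
  · exact isClosed_le (by unfold s2; exact continuous_finsetSum _ fun i _ => continuous_apply i)
      continuous_const

/-- The prism over a coordinate facet is a measurable set. -/
theorem measurableSet_sweep_facet_inl (u : P20) (j : Fin 20) (hj : u j < 0) :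
    MeasurableSet (sweep (facet (Sum.inl j)) u) := by
  have h : sweep (facet (Sum.inl j)) u =
      ({x : P20 | u j ≤ x j} ∩ {x : P20 | x j ≤ 0}) ∩
        (fun x : P20 => x - (x j / u j) • u) ⁻¹' KP := by
    ext x
    rw [mem_sweep_facet_inl u j hj x]
    simp
  rw [h]
  refine IsClosed.measurableSet (IsClosed.inter (IsClosed.inter ?_ ?_) ?_)
  · exact isClosed_le continuous_const (continuous_apply j)
  · exact isClosed_le (continuous_apply j) continuous_const
  · refine isClosed_KP.preimage ?_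
    exact continuous_id.sub (((continuous_apply j).div_const _).smul continuous_const)

/-- The first block with the coordinate `j` removed. -/
def blockA (j : Fin 20) : Finset (Fin 19) := Finset.univ.filter (fun i => j.succAbove i ∈ B1)

set_option maxRecDepth 100000 in
theorem card_blockA (j : Fin 20) :
    (blockA j).card.factorial * (blockA j)ᶜ.card.factorial =
      Nat.factorial 9 * Nat.factorial 10 := by
  have h : ((blockA j).card = 9 ∧ (blockA j)ᶜ.card = 10) ∨
      ((blockA j).card = 10 ∧ (blockA j)ᶜ.card = 9) := by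
    revert j; decide
  rcases h with ⟨h1, h2⟩ | ⟨h1, h2⟩
  · rw [h1, h2]
  · rw [h1, h2, Nat.mul_comm]

theorem s1_insertNth (j : Fin 20) (y : Fin 19 → ℝ) :
    s1 (j.insertNth (0 : ℝ) y : P20) = ∑ i ∈ blockA j, y i := by
  unfold s1 blockA
  rw [← Finset.univ_inter B1, ← Finset.sum_ite_mem, Fin.sum_univ_succAbove _ j, Finset.sum_filter]
  simp

theorem s2_insertNth (j : Fin 20) (y : Fin 19 → ℝ) :
    s2 (j.insertNth (0 : ℝ) y : P20) = ∑ i ∈ (blockA j)ᶜ, y i := by
  have hc : (blockA j)ᶜ = Finset.univ.filter (fun i => ¬ j.succAbove i ∈ B1) := by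
    ext i; simp [blockA]
  rw [hc]
  unfold s2
  rw [← Finset.univ_inter B2, ← Finset.sum_ite_mem, Fin.sum_univ_succAbove _ j, Finset.sum_filter]
  simp [B2]

theorem insertNth_mem_KP (j : Fin 20) (y : Fin 19 → ℝ) :
    (j.insertNth (0 : ℝ) y : P20) ∈ KP ↔
      (∀ i, 0 ≤ y i) ∧ ∑ i ∈ blockA j, y i ≤ 1 ∧ ∑ i ∈ (blockA j)ᶜ, y i ≤ 1 := by
  unfold KP
  show ((∀ i, 0 ≤ (j.insertNth (0 : ℝ) y : P20) i) ∧ s1 (j.insertNth (0 : ℝ) y : P20) ≤ 1 ∧
      s2 (j.insertNth (0 : ℝ) y : P20) ≤ 1) ↔ _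
  rw [s1_insertNth, s2_insertNth, Fin.forall_iff_succAbove j]
  simp

/-- Leaf D1: the prism over the coordinate facet `j` has volume `|u j| / (9!·10!)`. -/
theorem volume_sweep_facet_inl
    (hTB : ∀ A : Finset (Fin 19),
      volume {y : Fin 19 → ℝ | (∀ i, 0 ≤ y i) ∧ ∑ i ∈ A, y i ≤ 1 ∧ ∑ i ∈ Aᶜ, y i ≤ 1} =
        ENNReal.ofReal (1 / ((A.card.factorial : ℝ) * (Aᶜ.card.factorial : ℝ))))
    (u : P20) (j : Fin 20) (hj : u j < 0) :
    volume (sweep (facet (Sum.inl j)) u) =
      ENNReal.ofReal (- u j / ((Nat.factorial 9 : ℝ) * (Nat.factorial 10 : ℝ))) := by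
  classical
  have hne : u j ≠ 0 := ne_of_lt hj
  set e := MeasurableEquiv.piFinSuccAbove (fun _ : Fin 20 => ℝ) j with he
  have hmp : MeasurePreserving e.symm :=
    (volume_preserving_piFinSuccAbove (fun _ : Fin 20 => ℝ) j).symm
  have hesymm : ∀ (ξ : ℝ) (y : Fin 19 → ℝ), e.symm (ξ, y) = (j.insertNth ξ y : P20) :=
    fun ξ y => rfl
  set S := sweep (facet (Sum.inl j)) u with hS
  have hSm : MeasurableSet S := measurableSet_sweep_facet_inl u j hj
  set u' : Fin 19 → ℝ := fun i => u (j.succAbove i) with hu'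
  set G : Set (Fin 19 → ℝ) :=
    {y | (∀ i, 0 ≤ y i) ∧ ∑ i ∈ blockA j, y i ≤ 1 ∧ ∑ i ∈ (blockA j)ᶜ, y i ≤ 1} with hG
  have hslice : ∀ (ξ : ℝ) (y : Fin 19 → ℝ),
      e.symm (ξ, y) ∈ S ↔ ξ ∈ Set.Icc (u j) 0 ∧ y - (ξ / u j) • u' ∈ G := by
    intro ξ y
    rw [hesymm, hS, mem_sweep_facet_inl u j hj]
    have h1 : (j.insertNth ξ y : P20) j = ξ := by simp
    have h2 : (j.insertNth ξ y : P20) - ((j.insertNth ξ y : P20) j / u j) • u =
        (j.insertNth (0 : ℝ) (y - (ξ / u j) • u') : P20) := by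
      rw [h1]
      refine Fin.eq_insertNth_iff.mpr ⟨?_, ?_⟩
      · have : ξ - ξ / u j * u j = 0 := by field_simp; ring
        simpa using this
      · funext i
        simp [Fin.removeNth, hu']
    rw [h2, insertNth_mem_KP, h1]
    rfl
  have hGvol : volume G =
      ENNReal.ofReal (1 / ((Nat.factorial 9 : ℝ) * (Nat.factorial 10 : ℝ))) := by
    rw [hG, hTB (blockA j)]
    have hc : ((blockA j).card.factorial : ℝ) * ((blockA j)ᶜ.card.factorial : ℝ) =
        (Nat.factorial 9 : ℝ) * (Nat.factorial 10 : ℝ) := by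
      exact_mod_cast card_blockA j
    rw [hc]
  have hfib : ∀ ξ : ℝ, volume (Prod.mk ξ ⁻¹' (e.symm ⁻¹' S)) =
      Set.indicator (Set.Icc (u j) 0) (fun _ => volume G) ξ := by
    intro ξ
    by_cases hξ : ξ ∈ Set.Icc (u j) 0
    · rw [Set.indicator_of_mem hξ]
      have hset : Prod.mk ξ ⁻¹' (e.symm ⁻¹' S) =
          (fun y : Fin 19 → ℝ => y + -((ξ / u j) • u')) ⁻¹' G := by
        ext y
        simp only [Set.mem_preimage]
        rw [hslice ξ y, ← sub_eq_add_neg]
        exact and_iff_right hξ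
      rw [hset, measure_preimage_add_right]
    · rw [Set.indicator_of_notMem hξ]
      have hset : Prod.mk ξ ⁻¹' (e.symm ⁻¹' S) = ∅ := by
        ext y
        simp only [Set.mem_preimage, Set.mem_empty_iff_false, iff_false]
        rw [hslice ξ y]
        exact fun h => hξ h.1
      rw [hset, measure_empty]
  calc volume S = volume (e.symm ⁻¹' S) := (hmp.measure_preimage_equiv S).symm
    _ = ∫⁻ ξ, volume (Prod.mk ξ ⁻¹' (e.symm ⁻¹' S)) := by
        rw [Measure.volume_eq_prod, Measure.prod_apply (e.symm.measurable hSm)]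
    _ = ∫⁻ ξ, Set.indicator (Set.Icc (u j) 0) (fun _ => volume G) ξ := by
        simp_rw [hfib]
    _ = volume G * volume (Set.Icc (u j) 0) := lintegral_indicator_const measurableSet_Icc _
    _ = ENNReal.ofReal (- u j / ((Nat.factorial 9 : ℝ) * (Nat.factorial 10 : ℝ))) := by
        rw [hGvol, Real.volume_Icc, ← ENNReal.ofReal_mul (by positivity)]
        congr 1
        ring

end Crest.Agent.Helper8.S0355
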